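import Vale.Agent.P032.Words6.H343.LamAlt
import Vale.Agent.P032.Words6.H46.EncD

/-!
# P032: the accumulating selections of a six-coloured centre obey the rules `Sys`

`sys_of` : the structure `Sys` (input of the encoding into the tables) from a family `SelH` of legal words.
`HL` : the family of all legal words at generic times; `HL.sel`, `HL.rot`.
-/

open Set Filter Topology Metric

noncomputable section

namespace Vale.Agent.P032.Words6.H343

open Vale.Agent.P032.Six Vale.Agent.P032.S5.H767 Vale.Agent.P032.Words6.H704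
  Vale.Agent.P032.Words6.H46

variable {U : Fin 6 → Set ℂ} {T : ℂ → Set (Fin 6)} {z : ℂ}
  {H : ℝ → (Fin 6 → Set (Fin 6)) → Prop}

/-- **The rules at one time.** -/
theorem sys_of (C : Six6 U T z) (S : SelH T z H)
    (hact : ∀ i, ∃ q, dist q z = 1 ∧ i ∈ T q ∧ (T q).ncard = 2) {M : Fin 6 → Fin 6 → Prop}
    (hleg : ∀ v h, H v h → Leg M h) (u : ℝ) : Sys M (Acc H u) (Lam H u) where
  leg := fun h hh => by
    obtain ⟨v, hv⟩ := hh.exists
    exact hleg v h hv
  sub := fun h hh k => acc_sub_lam hh k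
  span := fun k i hi => hi
  card := S.lam_card C u
  nb := S.lam_nb C u
  nb1 := S.lam_nb1 C u
  gap := fun k h3 h2 => S.lam_gap3 C hact u k h3 h2
  g33 := fun k s h3 h3' hs h hh => S.lam_g33 C hact u k h3 h3' hs hh
  alt := by
    rintro ⟨e02, e24, e13, e35, h0, h1, h01⟩
    exact lam_alt' C S hact h0 h1 h01 e02.symm e13.symm (e02.trans e24).symm (e13.trans e35).symm

/-- the legal words selected at the generic times -/
def HL (T : ℂ → Set (Fin 6)) (z : ℂ) (M : Fin 6 → Fin 6 → Prop) (v : ℝ)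
    (h : Fin 6 → Set (Fin 6)) : Prop :=
  Gn T z v ∧ Leg M h ∧ ∀ k : Fin 6, h k ⊆ T (pt z (v + (k.val : ℝ)))

theorem hl_sel (C : Six6 U T z) {M : Fin 6 → Fin 6 → Prop}
    (hd : ∀ v, Gn T z v → ∃ h, Leg M h ∧ ∀ k : Fin 6, h k ⊆ T (pt z (v + (k.val : ℝ)))) :
    SelH T z (HL T z M) where
  gn := fun v h hv => hv.1
  le := fun v h hv => hv.2.2
  two := fun v h hv k => by
    obtain ⟨a, b, hab, -, e⟩ := hv.2.1.pair k
    rw [e, Set.ncard_pair hab]
  dense := fun u => by
    have h1 : ∃ᶠ v in 𝓝 u, Gn T z v := mem_closure_iff_frequently.1 (C.gn_dense u)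
    refine h1.mono fun v hv => ?_
    obtain ⟨h, h2, h3⟩ := hd v hv
    exact ⟨h, hv, h2, h3⟩

theorem hl_leg {M : Fin 6 → Fin 6 → Prop} (v : ℝ) (h : Fin 6 → Set (Fin 6))
    (hv : HL T z M v h) : Leg M h := hv.2.1

/-- rotation of a legal word -/
theorem leg_rot {M : Fin 6 → Fin 6 → Prop} {h : Fin 6 → Set (Fin 6)} (hh : Leg M h) :
    Leg M (fun k => h (k + 1)) where
  pair := fun k => hh.pair (k + 1)
  nb := fun k => hh.nb (k + 1)
  op := fun k => by
    have := hh.op (k + 1)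
    have e : k + 1 + 3 = k + 3 + 1 := by rw [add_assoc, add_assoc, add_comm (1 : Fin 6) 3]
    rwa [e] at this

/-- rotation of a legal word, backwards -/
theorem leg_rot' {M : Fin 6 → Fin 6 → Prop} {h : Fin 6 → Set (Fin 6)}
    (hh : Leg M (fun k => h (k + 1))) : Leg M h := by
  have h1 := leg_rot (leg_rot (leg_rot (leg_rot (leg_rot hh))))
  have e : (fun k => h (k + 1 + 1 + 1 + 1 + 1 + 1)) = h := by
    funext k
    congr 1
    simp only [add_assoc]
    have : (1 : Fin 6) + (1 + (1 + (1 + (1 + 1)))) = 0 := by decide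
    rw [this, add_zero]
  rw [← e]
  exact h1

/-- **Rotation.** -/
theorem hl_rot {M : Fin 6 → Fin 6 → Prop} {v : ℝ} {h : Fin 6 → Set (Fin 6)}
    (hv : HL T z M v h) : HL T z M (v + 1) (fun k => h (k + 1)) := by
  refine ⟨hv.1.shift, leg_rot hv.2.1, fun k => ?_⟩
  have h1 := hv.2.2 (k + 1)
  rw [pt_fin] at h1
  have e : v + 1 + (k.val : ℝ) = v + (k.val : ℝ) + 1 := by ring
  rw [e]
  exact h1

/-- the accumulating words rotate -/
theorem acc_rot {M : Fin 6 → Fin 6 → Prop} {u : ℝ} {h : Fin 6 → Set (Fin 6)}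
    (hu : Acc (HL T z M) u h) : Acc (HL T z M) (u + 1) (fun k => h (k + 1)) := by
  have hc : Tendsto (fun v : ℝ => v + 1) (𝓝 u) (𝓝 (u + 1)) := tendsto_add u 1
  exact hc.frequently (hu.mono fun v hv => hl_rot hv)

end Vale.Agent.P032.Words6.H343
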