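import Vale.Agent.P032.Words6.H343.Rot2

/-!
# P032: three half branches from one-sided control

`alt_ctrl` : the palettes at `b, b + 2, b + 4` are the triple `A`, the colours `Q` are at the three
other positions on one side of `b`, and `A`, `Q`, `x` are all colours of `T z`: impossible.  No
hypothesis about partners of `x` besides `z ∈ XX U`.
-/

open Set Filter Topology Metric

noncomputable section

namespace Vale.Agent.P032.Words6.H343

open Vale.Agent.P032.Six Vale.Agent.P032.S5.H767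

variable {U : Fin 6 → Set ℂ} {T : ℂ → Set (Fin 6)} {z : ℂ}

theorem hb_ctrl (h : Irr U T) {A Q : Set (Fin 6)} {x : Fin 6} {b o η : ℝ}
    (ho : o = 1 ∨ o = -1) (hη : 0 < η) (hcov : ∀ i ∈ T z, i ∈ A ∨ i ∈ Q ∨ i = x)
    (hA3 : A.ncard ≤ 3) (hA : T (pt z b) = A)
    (hQ : ∀ t ∈ Ioo (0 : ℝ) η, Q ⊆ T (pt z (b + o * t + 3))) :
    S5.H450.HB T z (pt z (b + 3)) o x := by
  have hpi : 0 < Real.pi / 3 := by positivity
  have e0 : 2 * z - pt z (b + 3) = pt z b := by rw [pt_three]; ring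
  refine S5.H450.half_branch h (dist_pt z _) ho (P := Q) (η := η * (Real.pi / 3))
    (mul_pos hη hpi) (fun t ht => ?_) ?_ ?_
  · have h1 : z + (pt z (b + 3) - z) * cis (o * t) = pt z (b + o * (t / (Real.pi / 3)) + 3) := by
      unfold pt
      have e1 : (b + o * (t / (Real.pi / 3)) + 3) * (Real.pi / 3) =
          (b + 3) * (Real.pi / 3) + o * t := by
        field_simp
        ring
      rw [e1, S5.H767.cis_add]; ring
    rw [h1]
    exact hQ _ ⟨div_pos ht.1 hpi, by rw [div_lt_iff₀ hpi]; exact ht.2⟩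
  · rw [e0, hA]; exact hA3
  · rw [e0, hA]
    intro i hi
    rcases hcov i hi with h3 | h3 | h3
    · exact Or.inr (Or.inl h3)
    · exact Or.inr (Or.inr h3)
    · exact Or.inl h3

/-- **Three half branches.** -/
theorem alt_ctrl (h : Irr U T) (hz : z ∈ XX U) {A Q : Set (Fin 6)} {x : Fin 6} {b o η : ℝ}
    (ho : o = 1 ∨ o = -1) (hη : 0 < η) (hcov : ∀ i ∈ T z, i ∈ A ∨ i ∈ Q ∨ i = x)
    (hA3 : A.ncard ≤ 3) (h0 : T (pt z b) = A) (h2 : T (pt z (b + 2)) = A)
    (h4 : T (pt z (b + 4)) = A)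
    (hQ : ∀ t ∈ Ioo (0 : ℝ) η, Q ⊆ T (pt z (b + o * t + 1)) ∧ Q ⊆ T (pt z (b + o * t + 3)) ∧
      Q ⊆ T (pt z (b + o * t + 5))) : False := by
  have b0 := hb_ctrl h ho hη hcov hA3 h0 fun t ht => (hQ t ht).2.1
  have b2 := hb_ctrl h ho hη hcov hA3 h2 (b := b + 2) fun t ht => by
    rw [show b + 2 + o * t + 3 = b + o * t + 5 by ring]; exact (hQ t ht).2.2
  have b4 := hb_ctrl h ho hη hcov hA3 h4 (b := b + 4) fun t ht => by
    rw [show b + 4 + o * t + 3 = b + o * t + 1 + 6 by ring, pt_six]; exact (hQ t ht).1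
  refine S5.H220.three_hb h hz (b := b + 3) ho b0 ?_ ?_
  · rw [show b + 3 + 2 = b + 2 + 3 by ring]; exact b2
  · rw [show b + 3 + 4 = b + 4 + 3 by ring]; exact b4

end Vale.Agent.P032.Words6.H343
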