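import Vale.Agent.P032.Words6.H360.Mask
import Vale.Agent.P032.Words6.H46.Code
import Vale.Agent.P032.Words6.H790.FinF

/-!
# P032: a colour in no letter: the three finite facts as statements about sets
-/

open Set

noncomputable section

namespace Vale.Agent.P032.Words6.H343.FB

open Vale.Agent.P032.Words6.H46 Vale.Agent.P032.Words6.H360 Vale.Agent.P032.Words6.H790
  Vale.Agent.P032.Words.Trie

/-- the coding: `i` is bit `0`, `x` is bit `5` -/
structure Cd (x i : Fin 6) (f : Fin 6 → ℕ) : Prop where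
  inj : Function.Injective f
  lt : ∀ j, f j < 6
  fi : f i = 0
  fx : f x = 5

theorem exists_cd {x i : Fin 6} (h : i ≠ x) : ∃ f, Cd x i f := by
  let e : Equiv.Perm (Fin 6) := (Equiv.swap i 0).trans (Equiv.swap ((Equiv.swap i 0) x) 5)
  have h1 : e i = 0 := by
    show Equiv.swap ((Equiv.swap i 0) x) 5 ((Equiv.swap i 0) i) = 0
    rw [Equiv.swap_apply_left]
    refine Equiv.swap_apply_of_ne_of_ne ?_ (by decide)
    intro h2
    exact h ((Equiv.swap i 0).injective ((Equiv.swap_apply_left i 0).trans h2))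
  have h2 : e x = 5 := by
    show Equiv.swap ((Equiv.swap i 0) x) 5 ((Equiv.swap i 0) x) = 5
    rw [Equiv.swap_apply_left]
  exact ⟨fun j => (e j).val, fun a b hab => e.injective (Fin.ext hab), fun j => (e j).isLt,
    by rw [h1]; rfl, by rw [h2]; rfl⟩

variable {x i : Fin 6} {f : Fin 6 → ℕ}

theorem Cd.ne5 (F : Cd x i f) {j : Fin 6} (h : j ≠ x) : f j < 5 := by
  have h1 := F.lt j
  have h2 : f j ≠ 5 := fun h3 => h (F.inj (h3.trans F.fx.symm))
  omega

theorem Cd.of_lt (F : Cd x i f) {p : ℕ} (h : p < 5) : ∃ j, j ≠ x ∧ f j = p := by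
  obtain ⟨j, hj⟩ := ex_f F.inj F.lt (show p < 6 by omega)
  refine ⟨j, fun h2 => ?_, hj⟩
  rw [h2, F.fx] at hj
  omega

theorem pair_mem : ∀ p < 5, ∀ q < 5, p ≠ q → (2 ^ p ||| 2 ^ q) ∈ L2 := by decide

theorem tri_mem : ∀ p < 5, ∀ q < 5, ∀ r < 5, p = q ∨ p = r ∨ q = r ∨
    (2 ^ p ||| 2 ^ q ||| 2 ^ r) ∈ L3 := by decide

theorem Cd.c2 (F : Cd x i f) {s : Set (Fin 6)} (hx : x ∉ s) (h : s.ncard = 2) :
    code f s ∈ L2 := by
  obtain ⟨a, b, hab, rfl⟩ := Set.ncard_eq_two.1 h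
  rw [code_pair F.inj F.lt]
  exact pair_mem _ (F.ne5 fun h => hx (Or.inl h.symm)) _ (F.ne5 fun h => hx (Or.inr h.symm))
    fun h => hab (F.inj h)

theorem code_tri (F : Cd x i f) (a b c : Fin 6) :
    code f {a, b, c} = 2 ^ f a ||| 2 ^ f b ||| 2 ^ f c := by
  have l1 : (2 : ℕ) ^ f a < 2 ^ 6 := Nat.pow_lt_pow_right (by norm_num) (F.lt a)
  have l2 : (2 : ℕ) ^ f b < 2 ^ 6 := Nat.pow_lt_pow_right (by norm_num) (F.lt b)
  have l3 : (2 : ℕ) ^ f c < 2 ^ 6 := Nat.pow_lt_pow_right (by norm_num) (F.lt c)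
  refine ext_mask F.inj F.lt (code_lt f _) (Nat.or_lt_two_pow (Nat.or_lt_two_pow l1 l2) l3)
    fun j => ?_
  rw [tb F.inj F.lt, Nat.testBit_or, Nat.testBit_or, Bool.or_eq_true, Bool.or_eq_true,
    Nat.testBit_two_pow, Nat.testBit_two_pow, Nat.testBit_two_pow,
    decide_eq_true_iff, decide_eq_true_iff, decide_eq_true_iff, Set.mem_insert_iff,
    Set.mem_insert_iff, Set.mem_singleton_iff]
  constructor
  · rintro (rfl | rfl | rfl)
    · exact Or.inl (Or.inl rfl)
    · exact Or.inl (Or.inr rfl)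
    · exact Or.inr rfl
  · rintro ((h | h) | h)
    · exact Or.inl (F.inj h).symm
    · exact Or.inr (Or.inl (F.inj h).symm)
    · exact Or.inr (Or.inr (F.inj h).symm)

theorem Cd.c3 (F : Cd x i f) {s : Set (Fin 6)} (hx : x ∉ s) (h : s.ncard = 3) :
    code f s ∈ L3 := by
  obtain ⟨a, b, c, hab, hac, hbc, rfl⟩ := Set.ncard_eq_three.1 h
  rw [code_tri F]
  rcases tri_mem _ (F.ne5 fun h => hx (Or.inl h.symm)) _
    (F.ne5 fun h => hx (Or.inr (Or.inl h.symm))) _
    (F.ne5 fun h => hx (Or.inr (Or.inr h.symm))) with h | h | h | h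
  · exact absurd (F.inj h) hab
  · exact absurd (F.inj h) hac
  · exact absurd (F.inj h) hbc
  · exact h

theorem beq_t {a b : ℕ} (h : a = b) : Nat.beq a b = true := by
  rw [h]; exact Nat.beq_refl b

theorem any_t {l : List ℕ} {a : ℕ} (h : a ∈ l) : l.any (Nat.beq a) = true :=
  List.any_eq_true.2 ⟨a, h, Nat.beq_refl a⟩

theorem any_mem {l : List ℕ} {a : ℕ} (h : l.any (Nat.beq a) = true) : a ∈ l := by
  obtain ⟨b, hb, e⟩ := List.any_eq_true.1 h
  rw [Nat.eq_of_beq_eq_true e]; exact hb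

theorem land0 (F : Cd x i f) {s t : Set (Fin 6)} (h : Disjoint s t) :
    Nat.land (code f s) (code f t) = 0 := by
  rw [code_and F.inj F.lt, Set.disjoint_iff_inter_eq_empty.1 h, code_empty F.inj F.lt]

theorem pw_pred : ∀ p < 6, Nat.land (2 ^ p) (Nat.pred (2 ^ p)) = 0 := by decide

theorem nb_of (F : Cd x i f) {s t : Set (Fin 6)} (hs : x ∉ s) (ht : x ∉ t)
    (h2 : s.ncard = 2 ∨ s.ncard = 3) (h3 : t.ncard = 2 ∨ t.ncard = 3)
    (hd : s.ncard = 2 ∨ t.ncard = 2 → Disjoint s t) (h1 : (s ∩ t).ncard ≤ 1) :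
    nbM (code f s) (code f t) = true := by
  unfold nbM
  by_cases hdi : Disjoint s t
  · rw [land0 F hdi]; rfl
  · have a2 : s.ncard = 3 := h2.resolve_left fun h => hdi (hd (Or.inl h))
    have a3 : t.ncard = 3 := h3.resolve_left fun h => hdi (hd (Or.inr h))
    rw [any_t (F.c3 hs a2), any_t (F.c3 ht a3), cond_true, cond_true]
    have : Nat.beq (Nat.land (Nat.land (code f s) (code f t))
        (Nat.pred (Nat.land (code f s) (code f t)))) 0 = true := by
      rw [code_and F.inj F.lt]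
      rcases Nat.le_one_iff_eq_zero_or_eq_one.1 h1 with h | h
      · exact absurd (Set.disjoint_iff_inter_eq_empty.2
          ((Set.ncard_eq_zero (Set.toFinite _)).1 h)) hdi
      · obtain ⟨a, ha⟩ := Set.ncard_eq_one.1 h
        rw [ha, code_single F.inj F.lt, pw_pred _ (F.lt a)]
        rfl
    rw [this]
    cases Nat.beq (Nat.land (code f s) (code f t)) 0 <;> rfl

theorem lets_of (F : Cd x i f) {s t : Set (Fin 6)} (hx : x ∉ t) (h : s.ncard = 2) (hs : s ⊆ t) :
    code f s ∈ lets (code f t) := by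
  unfold lets
  rw [List.mem_filter]
  refine ⟨F.c2 (fun h2 => hx (hs h2)) h, ?_⟩
  rw [code_and F.inj F.lt, Set.inter_eq_left.2 hs]
  exact Nat.beq_refl _

theorem dj_of (F : Cd x i f) {s t : Set (Fin 6)} (h : Disjoint s t) :
    dj (code f s) (code f t) = true := by
  unfold dj
  rw [land0 F h]; rfl

theorem bit30 : ∀ p < 6, p ≠ 0 → p ≠ 5 → Nat.testBit 30 p = true := by decide

theorem op_of (F : Cd x i f) {s t : Set (Fin 6)} {j : Fin 6} (hx : j ≠ x) (hi : j ≠ i)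
    (hs : j ∉ s) (ht : j ∉ t) : op (code f s) (code f t) = true := by
  unfold op
  have h : Nat.lor (code f s) (code f t) ≠ 30 := by
    intro h
    have h1 := bit30 (f j) (F.lt j) (fun h => hi (F.inj (h.trans F.fi.symm)))
      (fun h => hx (F.inj (h.trans F.fx.symm)))
    rw [← h] at h1
    have h2 : (Nat.lor (code f s) (code f t)).testBit (f j) =
      ((code f s).testBit (f j) || (code f t).testBit (f j)) := Nat.testBit_or _ _ _
    rw [h2, Bool.or_eq_true, tb F.inj F.lt, tb F.inj F.lt] at h1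
    exact h1.elim hs ht
  have : Nat.beq (Nat.lor (code f s) (code f t)) 30 = false := by
    cases e : Nat.beq (Nat.lor (code f s) (code f t)) 30
    · rfl
    · exact absurd (Nat.eq_of_beq_eq_true e) h
  rw [this]; rfl

/-! ### labels -/

/-- the label of the mask of positions -/
def clz (z : ℕ) : ℕ :=
  cond (Nat.beq (Nat.land z 42) 0) 0 (cond (Nat.beq (Nat.land z 21) 0) 1
    (cond (Nat.testBit z 0) 2 (cond (Nat.testBit z 1) 3 4)))

theorem clz_clM : ∀ z < 64, ∀ w < 64,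
    cond (Nat.beq (Nat.land z 42) 0) 0 (cond (Nat.beq (Nat.land z 21) 0) 1 (2 + z)) =
      cond (Nat.beq (Nat.land w 42) 0) 0 (cond (Nat.beq (Nat.land w 21) 0) 1 (2 + w)) →
    clz z = clz w := by decide +kernel

/-- the bit of a truth value -/
def b2 (b : Bool) : ℕ := cond b 1 0

theorem clz_b : ∀ b0 b1 b2' b3 b4 b5 : Bool,
    clz (b2 b0 + 2 * b2 b1 + 4 * b2 b2' + 8 * b2 b3 + 16 * b2 b4 + 32 * b2 b5) =
      cond ((!b1) && (!b3) && (!b5)) 0 (cond ((!b0) && (!b2') && (!b4)) 1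
        (cond b0 2 (cond b1 3 4))) := by decide

theorem land_one_le (m : ℕ) : Nat.land m 1 = b2 (m.testBit 0) := by
  have h : Nat.land m 1 = m % 2 := Nat.and_one_is_mod m
  rw [h, Nat.testBit_zero]
  rcases Nat.mod_two_eq_zero_or_one m with h | h <;> rw [h] <;> rfl

/-- the mask of the positions of `i` -/
def zS (f : Fin 6 → ℕ) (h : Fin 6 → Set (Fin 6)) : ℕ :=
  zM (code f (h 0)) (code f (h 1)) (code f (h 2)) (code f (h 3)) (code f (h 4)) (code f (h 5))

theorem cls_eq (F : Cd x i f) (h : Fin 6 → Set (Fin 6)) : cls i h = clz (zS f h) := by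
  classical
  unfold zS zM
  rw [land_one_le, land_one_le, land_one_le, land_one_le, land_one_le, land_one_le, clz_b]
  have t : ∀ k, (code f (h k)).testBit 0 = decide (i ∈ h k) := by
    intro k
    have := tb F.inj F.lt (h k) i
    rw [F.fi] at this
    exact Bool.eq_iff_iff.2 (this.trans (decide_eq_true_iff).symm)
  rw [t, t, t, t, t, t]
  unfold cls
  have e1 : (∀ k : Fin 6, i ∈ h k → k.val % 2 = 0) ↔ (i ∉ h 1 ∧ i ∉ h 3 ∧ i ∉ h 5) := by
    constructor
    · intro H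
      exact ⟨fun h1 => absurd (H 1 h1) (by decide), fun h1 => absurd (H 3 h1) (by decide),
        fun h1 => absurd (H 5 h1) (by decide)⟩
    · rintro ⟨h1, h3, h5⟩ k hk
      fin_cases k
      · rfl
      · exact absurd hk h1
      · rfl
      · exact absurd hk h3
      · rfl
      · exact absurd hk h5
  have e2 : (∀ k : Fin 6, i ∈ h k → k.val % 2 = 1) ↔ (i ∉ h 0 ∧ i ∉ h 2 ∧ i ∉ h 4) := by
    constructor
    · intro H
      exact ⟨fun h1 => absurd (H 0 h1) (by decide), fun h1 => absurd (H 2 h1) (by decide),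
        fun h1 => absurd (H 4 h1) (by decide)⟩
    · rintro ⟨h0, h2, h4⟩ k hk
      fin_cases k
      · exact absurd hk h0
      · rfl
      · exact absurd hk h2
      · rfl
      · exact absurd hk h4
      · rfl
  simp only [e1, e2]
  by_cases a0 : i ∈ h 0 <;> by_cases a1 : i ∈ h 1 <;> by_cases a2 : i ∈ h 2 <;>
    by_cases a3 : i ∈ h 3 <;> by_cases a4 : i ∈ h 4 <;> by_cases a5 : i ∈ h 5 <;>
    simp [a0, a1, a2, a3, a4, a5]

theorem zM_lt (a b c d e f : ℕ) : zM a b c d e f < 64 := by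
  unfold zM
  rw [land_one_le, land_one_le, land_one_le, land_one_le, land_one_le, land_one_le]
  have : ∀ b, b2 b ≤ 1 := by decide
  have h0 := this (a.testBit 0)
  have h1 := this (b.testBit 0)
  have h2 := this (c.testBit 0)
  have h3 := this (d.testBit 0)
  have h4 := this (e.testBit 0)
  have h5 := this (f.testBit 0)
  omega

/-- the class of a word of sets -/
def cS (f : Fin 6 → ℕ) (h : Fin 6 → Set (Fin 6)) : ℕ :=
  clM (code f (h 0)) (code f (h 1)) (code f (h 2)) (code f (h 3)) (code f (h 4)) (code f (h 5))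

theorem cls_of_cS (F : Cd x i f) {h g : Fin 6 → Set (Fin 6)} (e : cS f h = cS f g) :
    cls i h = cls i g := by
  rw [cls_eq F, cls_eq F]
  exact clz_clM _ (zM_lt _ _ _ _ _ _) _ (zM_lt _ _ _ _ _ _) e

/-! ### F1 and Rt -/

/-- every legal word changes its label under the rotation -/
def chkR : Bool := allW L2 L2 L2 L2 L2 L2 fun a b c d e f =>
  cond (Nat.beq (clz (zM a b c d e f)) (clz (zM b c d e f a))) false true

theorem chkR_true : chkR = true := by decide +kernel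

theorem beq_f {a b : ℕ} (h : cond (Nat.beq a b) false true = true) : a ≠ b := by
  rintro rfl
  rw [Nat.beq_refl] at h
  exact Bool.false_ne_true h

section box

variable {t h g : Fin 6 → Set (Fin 6)}

theorem lg_dj (F : Cd x i f) (H : Lg x i t h) (k k' : Fin 6) (e : k + 1 = k') :
    dj (code f (h k)) (code f (h k')) = true := by
  rw [← e]; exact dj_of F (H k).2.2.1

theorem lg_op (F : Cd x i f) (H : Lg x i t h) (k k' : Fin 6) (e : k + 3 = k') :
    op (code f (h k)) (code f (h k')) = true := by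
  rw [← e]
  obtain ⟨j, h1, h2, h3, h4⟩ := (H k).2.2.2
  exact op_of F h1 h2 h3 h4

theorem allW_spec (F : Cd x i f) (hB : Bx x t) (H : Lg x i t h)
    {p : ℕ → ℕ → ℕ → ℕ → ℕ → ℕ → Bool}
    (hp : allW (lets (code f (t 0))) (lets (code f (t 1))) (lets (code f (t 2)))
      (lets (code f (t 3))) (lets (code f (t 4))) (lets (code f (t 5))) p = true) :
    p (code f (h 0)) (code f (h 1)) (code f (h 2)) (code f (h 3)) (code f (h 4))
      (code f (h 5)) = true :=
  allW_iff hp (lets_of F (hB 0).1 (H 0).1 (H 0).2.1) (lets_of F (hB 1).1 (H 1).1 (H 1).2.1)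
    (lets_of F (hB 2).1 (H 2).1 (H 2).2.1) (lets_of F (hB 3).1 (H 3).1 (H 3).2.1)
    (lets_of F (hB 4).1 (H 4).1 (H 4).2.1) (lets_of F (hB 5).1 (H 5).1 (H 5).2.1)
    (lg_dj F H 0 1 rfl) (lg_dj F H 1 2 rfl) (lg_dj F H 2 3 rfl) (lg_dj F H 3 4 rfl)
    (lg_dj F H 4 5 rfl) (lg_dj F H 5 0 rfl) (lg_op F H 0 3 rfl) (lg_op F H 1 4 rfl)
    (lg_op F H 2 5 rfl)

theorem rt (F : Cd x i f) : Rt x i (cls i) := by
  intro t h hB H
  have hx : ∀ k, x ∉ h k := fun k hk => (hB k).1 ((H k).2.1 hk)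
  have h1 := allW_iff chkR_true (F.c2 (hx 0) (H 0).1) (F.c2 (hx 1) (H 1).1)
    (F.c2 (hx 2) (H 2).1) (F.c2 (hx 3) (H 3).1) (F.c2 (hx 4) (H 4).1) (F.c2 (hx 5) (H 5).1)
    (lg_dj F H 0 1 rfl) (lg_dj F H 1 2 rfl) (lg_dj F H 2 3 rfl) (lg_dj F H 3 4 rfl)
    (lg_dj F H 4 5 rfl) (lg_dj F H 5 0 rfl) (lg_op F H 0 3 rfl) (lg_op F H 1 4 rfl)
    (lg_op F H 2 5 rfl)
  have h2 := beq_f h1
  rw [cls_eq F, cls_eq F]
  exact fun e => h2 e.symm

theorem bx_nb (F : Cd x i f) (hB : Bx x t) (k k' : Fin 6) (e : k + 1 = k') :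
    nbM (code f (t k)) (code f (t k')) = true := by
  rw [← e]
  exact nb_of F (hB k).1 (hB (k + 1)).1 (hB k).2.1 (hB (k + 1)).2.1 (hB k).2.2.1 (hB k).2.2.2

theorem bx_mem (F : Cd x i f) (hB : Bx x t) (k : Fin 6) : code f (t k) ∈ L2 ++ L3 := by
  rw [List.mem_append]
  exact (hB k).2.1.imp (F.c2 (hB k).1) (F.c3 (hB k).1)

theorem l23 : ∀ a ∈ L2, L3.any (Nat.beq a) = false := by decide

theorem one_spec (F : Cd x i f) (hB : Bx x t) (H : Lg x i t h) (G : Lg x i t g)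
    (h1 : one (code f (t 0)) (code f (t 1)) (code f (t 2)) (code f (t 3)) (code f (t 4))
      (code f (t 5)) = true) : cls i h = cls i g := by
  unfold one at h1
  obtain ⟨cl, -, hc⟩ := List.any_eq_true.1 h1
  have a1 := Nat.eq_of_beq_eq_true (allW_spec F hB H hc)
  have a2 := Nat.eq_of_beq_eq_true (allW_spec F hB G hc)
  exact cls_of_cS F (a1.trans a2.symm)

theorem f1 (F : Cd x i f) : F1 x i (cls i) := by
  intro t h g hB ⟨k, hk⟩ H G
  have h1 := allB_iff chk1_true (bx_mem F hB 0) (bx_mem F hB 1) (bx_mem F hB 2)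
    (bx_mem F hB 3) (bx_mem F hB 4) (bx_mem F hB 5)
    (bx_nb F hB 0 1 rfl) (bx_nb F hB 1 2 rfl) (bx_nb F hB 2 3 rfl) (bx_nb F hB 3 4 rfl)
    (bx_nb F hB 4 5 rfl) (bx_nb F hB 5 0 rfl)
  have h2 : sixT (code f (t 0)) (code f (t 1)) (code f (t 2)) (code f (t 3)) (code f (t 4))
      (code f (t 5)) = false := by
    have h3 := l23 _ (F.c2 (hB k).1 hk)
    unfold sixT
    fin_cases k <;> simp only [Fin.zero_eta, Fin.mk_one, Fin.reduceFinMk] at h3 <;> rw [h3]
    all_goals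
      cases L3.any (Nat.beq (code f (t 0))) <;> cases L3.any (Nat.beq (code f (t 1))) <;>
      cases L3.any (Nat.beq (code f (t 2))) <;> cases L3.any (Nat.beq (code f (t 3))) <;>
      cases L3.any (Nat.beq (code f (t 4))) <;> rfl
  rw [h2, cond_false] at h1
  exact one_spec F hB H G h1

/-! ### F2 -/

theorem cand {a b : Bool} (h : cond a b false = true) : a = true ∧ b = true := by
  cases a
  · exact absurd h Bool.false_ne_true
  · exact ⟨rfl, h⟩

theorem cor {a b : Bool} (h : cond a true b = true) : a = true ∨ b = true := by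
  cases a
  · exact Or.inr h
  · exact Or.inl rfl

theorem has_spec {m : ℕ}
    (H : has m (code f (h 0)) (code f (h 1)) (code f (h 2)) (code f (h 3)) (code f (h 4))
      (code f (h 5)) (code f (g 0)) (code f (g 1)) (code f (g 2)) (code f (g 3)) (code f (g 4))
      (code f (g 5)) = true) : ∃ k, m = code f (h k) ∨ m = code f (g k) := by
  have h1 := any_mem H
  simp only [List.mem_cons, List.not_mem_nil, or_false] at h1
  rcases h1 with e | e | e | e | e | e | e | e | e | e | e | e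
  · exact ⟨0, Or.inl e⟩
  · exact ⟨1, Or.inl e⟩
  · exact ⟨2, Or.inl e⟩
  · exact ⟨3, Or.inl e⟩
  · exact ⟨4, Or.inl e⟩
  · exact ⟨5, Or.inl e⟩
  · exact ⟨0, Or.inr e⟩
  · exact ⟨1, Or.inr e⟩
  · exact ⟨2, Or.inr e⟩
  · exact ⟨3, Or.inr e⟩
  · exact ⟨4, Or.inr e⟩
  · exact ⟨5, Or.inr e⟩

theorem l2_of : ∀ A ∈ L2, ∃ p < 5, ∃ q < 5, p ≠ q ∧ A = (2 ^ p ||| 2 ^ q) := by decide +kernel

theorem ex_c : ∀ x a b : Fin 6, ∃ c, c ≠ x ∧ c ≠ a ∧ c ≠ b := by decide

theorem cutD : ∀ p < 5, ∀ q < 5, ∀ v < 5, v = p ∨ v = q ∨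
    (Nat.beq (Nat.land (2 ^ p ||| 2 ^ v) (2 ^ p ||| 2 ^ q)) 0 = false ∧
      Nat.beq (2 ^ p ||| 2 ^ v) (2 ^ p ||| 2 ^ q) = false ∧
      Nat.beq (Nat.land (2 ^ q ||| 2 ^ v) (2 ^ p ||| 2 ^ q)) 0 = false ∧
      Nat.beq (2 ^ q ||| 2 ^ v) (2 ^ p ||| 2 ^ q) = false) := by decide +kernel

theorem cut_spec (F : Cd x i f)
    (H : cut (code f (h 0)) (code f (h 1)) (code f (h 2)) (code f (h 3)) (code f (h 4))
      (code f (h 5)) (code f (g 0)) (code f (g 1)) (code f (g 2)) (code f (g 3)) (code f (g 4))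
      (code f (g 5)) = true) :
    ∃ A B : Set (Fin 6), A.Nonempty ∧ B.Nonempty ∧ A.ncard ≤ 2 ∧ Disjoint A B ∧ x ∉ A ∧
      x ∉ B ∧ (∀ j, j = x ∨ j ∈ A ∨ j ∈ B) ∧
      ∀ a ∈ A, ∀ b ∈ B, ∃ k, h k = {a, b} ∨ g k = {a, b} := by
  unfold cut at H
  obtain ⟨A, hA, hc⟩ := List.any_eq_true.1 H
  rw [List.all_eq_true] at hc
  obtain ⟨p, hp, q, hq, hpq, rfl⟩ := l2_of A hA
  obtain ⟨a, hax, rfl⟩ := F.of_lt hp
  obtain ⟨b, hbx, rfl⟩ := F.of_lt hq
  have hab : a ≠ b := fun h => hpq (by rw [h])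
  have fin : ∀ a' b', Nat.beq (2 ^ f a' ||| 2 ^ f b') (2 ^ f a ||| 2 ^ f b) = false →
      Nat.beq (Nat.land (2 ^ f a' ||| 2 ^ f b') (2 ^ f a ||| 2 ^ f b)) 0 = false →
      a' ≠ x → b' ≠ x → a' ≠ b' → ∃ k, h k = {a', b'} ∨ g k = {a', b'} := by
    intro a' b' n1 n2 n3 n4 n5
    have m := hc (2 ^ f a' ||| 2 ^ f b') (pair_mem _ (F.ne5 n3) _ (F.ne5 n4)
      fun h => n5 (F.inj h))
    rw [n2, n1, cond_false, cond_false] at m
    obtain ⟨k, hk⟩ := has_spec m
    rw [← code_pair F.inj F.lt] at hk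
    exact ⟨k, hk.imp (fun e => (code_inj F.inj F.lt e).symm)
      fun e => (code_inj F.inj F.lt e).symm⟩
  refine ⟨{a, b}, {j | j ≠ x ∧ j ≠ a ∧ j ≠ b}, ⟨a, Or.inl rfl⟩, ?_, (Set.ncard_pair hab).le,
    ?_, ?_, ?_, ?_, ?_⟩
  · obtain ⟨c, h1, h2, h3⟩ := ex_c x a b
    exact ⟨c, h1, h2, h3⟩
  · rw [Set.disjoint_left]
    rintro j hj ⟨-, h2, h3⟩
    rcases hj with e | e
    · exact h2 e
    · exact h3 e
  · rintro (h | h)
    · exact hax h.symm
    · exact hbx h.symm
  · rintro ⟨h, -⟩; exact h rfl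
  · intro j
    by_cases h1 : j = x
    · exact Or.inl h1
    by_cases h2 : j = a
    · exact Or.inr (Or.inl (Or.inl h2))
    by_cases h3 : j = b
    · exact Or.inr (Or.inl (Or.inr h3))
    exact Or.inr (Or.inr ⟨h1, h2, h3⟩)
  · rintro a' ha' b' ⟨k1, k2, k3⟩
    rcases cutD (f a) (F.ne5 hax) (f b) (F.ne5 hbx) (f b') (F.ne5 k1) with e | e | ⟨e1, e2, e3, e4⟩
    · exact absurd (F.inj e) k2
    · exact absurd (F.inj e) k3
    · rcases ha' with e | e
      · rw [e]
        exact fin a b' e2 e1 hax k1 fun e => k2 e.symm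
      · rw [Set.mem_singleton_iff.1 e]
        exact fin b b' e4 e3 hbx k1 fun e => k3 e.symm

theorem prm_spec : ∀ q ∈ prm, ∃ r < 5, ∃ s < 5, ∃ c < 5, ∃ d < 5,
    q.1 = 2 ^ r ∧ q.2.1 = 2 ^ s ∧
    (1 + q.1 + q.2.2.2 = (2 ^ r ||| 2 ^ 0 ||| 2 ^ d)) ∧
    (1 + q.2.1 + q.2.2.1 = (2 ^ s ||| 2 ^ 0 ||| 2 ^ c)) ∧ q.1 + q.2.2.2 = (2 ^ r ||| 2 ^ d) ∧
    q.2.1 + 1 = (2 ^ s ||| 2 ^ 0) ∧ q.1 + 1 = (2 ^ r ||| 2 ^ 0) ∧
    q.2.1 + q.2.2.1 = (2 ^ s ||| 2 ^ c) ∧ q.2.2.1 + q.2.2.2 = (2 ^ c ||| 2 ^ d) ∧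
    ∀ j < 5, j = 0 ∨ j = r ∨ j = s ∨ j = c ∨ j = d := by decide +kernel

theorem blk_spec (F : Cd x i f) {k : Fin 6} {w : ℕ → ℕ → Bool} {l : ℕ → Bool}
    (H : blk (code f (t k)) (code f (t (k + 3))) (code f (h k)) (code f (h (k + 3)))
      (code f (g k)) (code f (g (k + 3))) w l = true)
    (hw : ∀ r s : Fin 6, w (2 ^ f r) (2 ^ f s) = true → ∀ v, Lg x i t v →
      r ∈ v k ∧ s ∈ v (k + 3))
    (hl : ∀ m, l m = true → ∃ j, m = code f (h j) ∨ m = code f (g j)) :
    BL x i t h g k := by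
  unfold blk at H
  obtain ⟨q, hq, H⟩ := List.any_eq_true.1 H
  obtain ⟨r, hr, s, hs, c, hc, d, hd, q1, q2, e1, e2, e3, e4, e5, e6, e7, hall⟩ :=
    prm_spec q hq
  obtain ⟨r, hrx, rfl⟩ := F.of_lt hr
  obtain ⟨s, hsx, rfl⟩ := F.of_lt hs
  obtain ⟨c, hcx, rfl⟩ := F.of_lt hc
  obtain ⟨d, hdx, rfl⟩ := F.of_lt hd
  rw [e1, e2, e3, e4, e5, e6, e7, q1, q2, ← F.fi, ← code_tri F, ← code_tri F,
    ← code_pair F.inj F.lt, ← code_pair F.inj F.lt, ← code_pair F.inj F.lt,
    ← code_pair F.inj F.lt, ← code_pair F.inj F.lt] at H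
  obtain ⟨a1, H⟩ := cand H
  obtain ⟨a2, H⟩ := cand H
  obtain ⟨a3, H⟩ := cand H
  obtain ⟨a4, H⟩ := cand H
  obtain ⟨a5, H⟩ := cand H
  obtain ⟨a6, H⟩ := cand H
  obtain ⟨a7, H⟩ := cand H
  have cv : ∀ {s t : Set (Fin 6)}, Nat.beq (code f s) (code f t) = true → s = t :=
    fun h => code_inj F.inj F.lt (Nat.eq_of_beq_eq_true h)
  refine ⟨r, s, c, d, fun j => ?_, (cv a1).subset, (cv a2).subset, cv a3, cv a4, cv a5, cv a6,
    ?_, hw r s H⟩
  · by_cases hj : j = x
    · exact Or.inl hj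
    · rcases hall (f j) (F.ne5 hj) with e | e | e | e | e
      · exact Or.inr (Or.inl (F.inj (e.trans F.fi.symm)))
      · exact Or.inr (Or.inr (Or.inl (F.inj e)))
      · exact Or.inr (Or.inr (Or.inr (Or.inl (F.inj e))))
      · exact Or.inr (Or.inr (Or.inr (Or.inr (Or.inl (F.inj e)))))
      · exact Or.inr (Or.inr (Or.inr (Or.inr (Or.inr (F.inj e)))))
  · obtain ⟨j, hj⟩ := hl _ a7
    exact ⟨j, hj.imp (fun e => (code_inj F.inj F.lt e).symm)
      fun e => (code_inj F.inj F.lt e).symm⟩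

theorem mem_of_land (F : Cd x i f) {s : Set (Fin 6)} {r : Fin 6}
    (h : Nat.beq (Nat.land (code f s) (2 ^ f r)) (2 ^ f r) = true) : r ∈ s := by
  have h1 := Nat.eq_of_beq_eq_true h
  rw [← code_single F.inj F.lt r, code_and F.inj F.lt] at h1
  have h2 := code_inj F.inj F.lt h1
  have h3 : r ∈ s ∩ {r} := by rw [h2]; exact Set.mem_singleton r
  exact h3.1

theorem has_comm {m : ℕ} (H : ∃ k, m = code f (h k) ∨ m = code f (g k)) :
    ∃ k, m = code f (g k) ∨ m = code f (h k) := by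
  obtain ⟨k, hk⟩ := H
  exact ⟨k, hk.symm⟩

theorem blk0_spec (F : Cd x i f) (hB : Bx x t)
    (H : blk0 (code f (t 0)) (code f (t 1)) (code f (t 2)) (code f (t 3)) (code f (t 4))
      (code f (t 5)) (code f (h 0)) (code f (h 1)) (code f (h 2)) (code f (h 3)) (code f (h 4))
      (code f (h 5)) (code f (g 0)) (code f (g 1)) (code f (g 2)) (code f (g 3)) (code f (g 4))
      (code f (g 5)) = true) : BL x i t h g 0 ∨ BL x i t h g 3 := by
  unfold blk0 at H
  rcases cor H with H | H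
  · left
    refine blk_spec F (k := 0) H (fun r s hw v hv => ?_) fun m hm => has_spec hm
    obtain ⟨h1, h2⟩ := cand (allW_spec F hB hv hw)
    exact ⟨mem_of_land F h1, mem_of_land F h2⟩
  · right
    refine blk_spec F (k := 3) H (fun r s hw v hv => ?_) fun m hm => has_spec hm
    obtain ⟨h1, h2⟩ := cand (allW_spec F hB hv hw)
    exact ⟨mem_of_land F h1, mem_of_land F h2⟩

/-- a blocked line, one way or the other -/
def Q (x i : Fin 6) (t h g : Fin 6 → Set (Fin 6)) (k : Fin 6) : Prop :=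
  BL x i t h g k ∨ BL x i t g h k

theorem blkS_spec (F : Cd x i f) (hB : Bx x t)
    (H : blkS (code f (t 0)) (code f (t 1)) (code f (t 2)) (code f (t 3)) (code f (t 4))
      (code f (t 5)) (code f (h 0)) (code f (h 1)) (code f (h 2)) (code f (h 3)) (code f (h 4))
      (code f (h 5)) (code f (g 0)) (code f (g 1)) (code f (g 2)) (code f (g 3)) (code f (g 4))
      (code f (g 5)) = true) : Q x i t h g 0 ∨ Q x i t h g 3 := by
  unfold blkS at H
  rcases cor H with H | H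
  · exact (blk0_spec F hB H).imp Or.inl Or.inl
  · exact (blk0_spec F hB H).imp Or.inr Or.inr

theorem bl_shift (n : Fin 6) {m : Fin 6}
    (H : BL x i (fun k => t (n + k)) (fun k => h (n + k)) (fun k => g (n + k)) m) :
    BL x i t h g (n + m) := by
  obtain ⟨r, s, c, d, e0, e1, e2, e3, e4, e5, e6, ⟨j, e7⟩, e8⟩ := H
  have ea : n + (m + 3) = n + m + 3 := (add_assoc n m 3).symm
  simp only [ea] at e2 e4 e6
  refine ⟨r, s, c, d, e0, e1, e2, e3, e4, e5, e6, ⟨n + j, e7⟩, fun w hw => ?_⟩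
  have h1 : Lg x i (fun k => t (n + k)) (fun k => w (n + k)) := by
    intro k
    obtain ⟨w1, w2, w3, w4⟩ := hw (n + k)
    refine ⟨w1, w2, ?_, ?_⟩
    · show Disjoint (w (n + k)) (w (n + (k + 1)))
      rw [← add_assoc]; exact w3
    · show ∃ j, j ≠ x ∧ j ≠ i ∧ j ∉ w (n + k) ∧ j ∉ w (n + (k + 3))
      rw [← add_assoc]; exact w4
  have h2 := e8 _ h1
  simp only [ea] at h2
  exact h2

theorem q_shift (n : Fin 6) {m : Fin 6}
    (H : Q x i (fun k => t (n + k)) (fun k => h (n + k)) (fun k => g (n + k)) m) :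
    Q x i t h g (n + m) := H.imp (bl_shift n) (bl_shift n)

theorem bx_shift (n : Fin 6) (hB : Bx x t) : Bx x (fun k => t (n + k)) := by
  intro k
  have h1 := hB (n + k)
  rw [add_assoc] at h1
  exact h1

theorem two_spec (F : Cd x i f) (hB : Bx x t)
    (H : two (code f (t 0)) (code f (t 1)) (code f (t 2)) (code f (t 3)) (code f (t 4))
      (code f (t 5)) (code f (h 0)) (code f (h 1)) (code f (h 2)) (code f (h 3)) (code f (h 4))
      (code f (h 5)) (code f (g 0)) (code f (g 1)) (code f (g 2)) (code f (g 3)) (code f (g 4))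
      (code f (g 5)) = true) :
    ∃ k k' : Fin 6, k' ≠ k ∧ k' ≠ k + 3 ∧ Q x i t h g k ∧ Q x i t h g k' := by
  have s0 : blkS (code f (t 0)) (code f (t 1)) (code f (t 2)) (code f (t 3)) (code f (t 4))
      (code f (t 5)) (code f (h 0)) (code f (h 1)) (code f (h 2)) (code f (h 3)) (code f (h 4))
      (code f (h 5)) (code f (g 0)) (code f (g 1)) (code f (g 2)) (code f (g 3)) (code f (g 4))
      (code f (g 5)) = true → Q x i t h g 0 ∨ Q x i t h g 3 := blkS_spec F hB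
  have s1 : blkS (code f (t 1)) (code f (t 2)) (code f (t 3)) (code f (t 4))
      (code f (t 5)) (code f (t 0)) (code f (h 1)) (code f (h 2)) (code f (h 3)) (code f (h 4))
      (code f (h 5)) (code f (h 0)) (code f (g 1)) (code f (g 2)) (code f (g 3)) (code f (g 4))
      (code f (g 5)) (code f (g 0)) = true → Q x i t h g 1 ∨ Q x i t h g 4 := fun H =>
    (blkS_spec F (bx_shift 1 hB) (t := fun k => t (1 + k)) (h := fun k => h (1 + k))
      (g := fun k => g (1 + k)) H).imp (q_shift 1) (q_shift 1)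
  have s2 : blkS (code f (t 2)) (code f (t 3)) (code f (t 4))
      (code f (t 5)) (code f (t 0)) (code f (t 1)) (code f (h 2)) (code f (h 3)) (code f (h 4))
      (code f (h 5)) (code f (h 0)) (code f (h 1)) (code f (g 2)) (code f (g 3)) (code f (g 4))
      (code f (g 5)) (code f (g 0)) (code f (g 1)) = true → Q x i t h g 2 ∨ Q x i t h g 5 := fun H =>
    (blkS_spec F (bx_shift 2 hB) (t := fun k => t (2 + k)) (h := fun k => h (2 + k))
      (g := fun k => g (2 + k)) H).imp (q_shift 2) (q_shift 2)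
  unfold two at H
  generalize blkS (code f (t 0)) (code f (t 1)) (code f (t 2)) (code f (t 3)) (code f (t 4))
      (code f (t 5)) (code f (h 0)) (code f (h 1)) (code f (h 2)) (code f (h 3)) (code f (h 4))
      (code f (h 5)) (code f (g 0)) (code f (g 1)) (code f (g 2)) (code f (g 3)) (code f (g 4))
      (code f (g 5)) = b0 at H s0
  generalize blkS (code f (t 1)) (code f (t 2)) (code f (t 3)) (code f (t 4))
      (code f (t 5)) (code f (t 0)) (code f (h 1)) (code f (h 2)) (code f (h 3)) (code f (h 4))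
      (code f (h 5)) (code f (h 0)) (code f (g 1)) (code f (g 2)) (code f (g 3)) (code f (g 4))
      (code f (g 5)) (code f (g 0)) = b1 at H s1
  generalize blkS (code f (t 2)) (code f (t 3)) (code f (t 4))
      (code f (t 5)) (code f (t 0)) (code f (t 1)) (code f (h 2)) (code f (h 3)) (code f (h 4))
      (code f (h 5)) (code f (h 0)) (code f (h 1)) (code f (g 2)) (code f (g 3)) (code f (g 4))
      (code f (g 5)) (code f (g 0)) (code f (g 1)) = b2 at H s2
  have hh : (b0 = true ∧ b1 = true) ∨ (b0 = true ∧ b2 = true) ∨ (b1 = true ∧ b2 = true) := by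
    revert H; cases b0 <;> cases b1 <;> cases b2 <;> decide
  rcases hh with ⟨h1, h2⟩ | ⟨h1, h2⟩ | ⟨h1, h2⟩
  · rcases s0 h1 with q | q <;> rcases s1 h2 with q' | q'
    · exact ⟨0, 1, by decide, by decide, q, q'⟩
    · exact ⟨0, 4, by decide, by decide, q, q'⟩
    · exact ⟨3, 1, by decide, by decide, q, q'⟩
    · exact ⟨3, 4, by decide, by decide, q, q'⟩
  · rcases s0 h1 with q | q <;> rcases s2 h2 with q' | q'
    · exact ⟨0, 2, by decide, by decide, q, q'⟩
    · exact ⟨0, 5, by decide, by decide, q, q'⟩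
    · exact ⟨3, 2, by decide, by decide, q, q'⟩
    · exact ⟨3, 5, by decide, by decide, q, q'⟩
  · rcases s1 h1 with q | q <;> rcases s2 h2 with q' | q'
    · exact ⟨1, 2, by decide, by decide, q, q'⟩
    · exact ⟨1, 5, by decide, by decide, q, q'⟩
    · exact ⟨4, 2, by decide, by decide, q, q'⟩
    · exact ⟨4, 5, by decide, by decide, q, q'⟩

theorem f2 (F : Cd x i f) : F2 x i (cls i) := by
  intro t h g hB h3 H G hne
  have m3 : ∀ k, code f (t k) ∈ L3 := fun k => F.c3 (hB k).1 (h3 k)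
  have K := allB_iff chk2_true (m3 0) (m3 1) (m3 2) (m3 3) (m3 4) (m3 5)
    (bx_nb F hB 0 1 rfl) (bx_nb F hB 1 2 rfl) (bx_nb F hB 2 3 rfl) (bx_nb F hB 3 4 rfl)
    (bx_nb F hB 4 5 rfl) (bx_nb F hB 5 0 rfl)
  rcases cor K with K | K
  · exact absurd (one_spec F hB H G K) hne
  rcases cor K with K | K
  · left
    unfold altM at K
    obtain ⟨a1, K⟩ := cand K
    obtain ⟨a2, K⟩ := cand K
    obtain ⟨a3, K⟩ := cand K
    obtain ⟨a4, K⟩ := cand K
    have cv : ∀ {s t : Set (Fin 6)}, Nat.beq (code f s) (code f t) = true → s = t :=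
      fun h => code_inj F.inj F.lt (Nat.eq_of_beq_eq_true h)
    refine ⟨t 0, t 1, h3 0, h3 1, (hB 0).1, (hB 1).1, ?_, fun k => ?_⟩
    · have h1 := Nat.eq_of_beq_eq_true K
      rw [code_and F.inj F.lt] at h1
      refine code_inj F.inj F.lt (h1.trans ?_)
      rw [code_single F.inj F.lt, F.fi]; rfl
    · fin_cases k
      · rfl
      · rfl
      · exact (cv a1).symm
      · exact (cv a3).symm
      · exact ((cv a1).trans (cv a2)).symm
      · exact ((cv a3).trans (cv a4)).symm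
  have K := allW_spec F hB G (allW_spec F hB H K)
  rcases cor K with K | K
  · exact absurd (cls_of_cS F (Nat.eq_of_beq_eq_true K)) hne
  right
  rcases cor K with K | K
  · exact Or.inl (cut_spec F K)
  · exact Or.inr (two_spec F hB K)

end box

/-- **the three finite facts** -/
theorem finF : FinF := by
  intro x i hxi
  obtain ⟨f, F⟩ := exists_cd hxi
  exact ⟨f1 F, rt F, f2 F⟩

end Vale.Agent.P032.Words6.H343.FB
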