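import Vale.Agent.P032.Words6.H46.Rules
import Vale.Agent.P032.S5.H220.FrozIA

/-!
# P032: no rotation of two triples at a six-coloured centre

`rot2` : the six palettes of the circle of a six-coloured centre are never `A, B, A, B, A, B` with
`A`, `B` triples with exactly one common colour.
-/

open Set Filter Topology Metric

noncomputable section

namespace Vale.Agent.P032.Words6.H343

open Vale.Agent.P032.Six Vale.Agent.P032.S5.H767 Vale.Agent.P032.Words6.H704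

variable {U : Fin 6 → Set ℂ} {T : ℂ → Set (Fin 6)} {z : ℂ}

theorem pt_int (z : ℂ) (t : ℝ) (n : ℤ) : pt z (t + 6 * (n : ℝ)) = pt z t := by
  have h : Function.Periodic (pt z) 6 := fun t => pt_six z t
  have := h.int_mul n t
  rw [mul_comm]; exact this

theorem pt_even (z : ℂ) (t : ℝ) (n : ℤ) : pt z (t + 2 * (n : ℝ)) = pt z t ∨
    pt z (t + 2 * (n : ℝ)) = pt z (t + 2) ∨ pt z (t + 2 * (n : ℝ)) = pt z (t + 4) := by
  obtain ⟨q, hq⟩ : ∃ q : ℤ, n = 3 * q ∨ n = 3 * q + 1 ∨ n = 3 * q + 2 := ⟨n / 3, by omega⟩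
  rcases hq with rfl | rfl | rfl
  · left
    rw [← pt_int z t q]; congr 1; push_cast; ring
  · right; left
    rw [← pt_int z (t + 2) q]; congr 1; push_cast; ring
  · right; right
    rw [← pt_int z (t + 4) q]; congr 1; push_cast; ring

theorem isOpen_sub (h : Irr U T) (z : ℂ) (Q : Set (Fin 6)) (c : ℝ) :
    IsOpen {v : ℝ | T (pt z (v + c)) ⊆ Q} := by
  rw [isOpen_iff_mem_nhds]
  intro v hv
  have hc : Continuous fun v : ℝ => pt z (v + c) := (continuous_pt z).comp (by fun_prop)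
  filter_upwards [(hc.tendsto v).eventually (h.nhd _)] with w hw
  exact hw.trans hv

/-- the main case: near `u` there is a time at which the odd palettes are `B \ {s}` -/
theorem rot2_core (C : Six6 U T z) (hact : ∀ i, ∃ q, dist q z = 1 ∧ i ∈ T q) {A B : Set (Fin 6)}
    {s : Fin 6} (hA : A.ncard = 3) (hB : B.ncard = 3) (hs : A ∩ B = {s}) {u δ : ℝ}
    (hV : ∀ v, |v - u| < δ → ∀ n : ℤ, T (pt z (v + 2 * (n : ℝ))) ⊆ A ∧
      T (pt z (v + 2 * (n : ℝ) + 1)) ⊆ B)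
    (hG : ∀ v, |v - u| < δ → ∀ n : ℤ, ¬ (T (pt z (v + 2 * (n : ℝ))) = A \ {s} ∧
      T (pt z (v + 2 * (n : ℝ) + 3)) = B \ {s}))
    (hu : s ∈ T (pt z (u + 1))) {v0 : ℝ} (hv0 : |v0 - u| < δ)
    (h0 : ∀ n : ℤ, T (pt z (v0 + 2 * (n : ℝ) + 1)) ⊆ B \ {s}) : False := by
  have hsA : s ∈ A := (hs ▸ mem_singleton s : s ∈ A ∩ B).1
  have hsB : s ∈ B := (hs ▸ mem_singleton s : s ∈ A ∩ B).2
  have hA2 : (A \ {s}).ncard = 2 := by rw [Set.ncard_sdiff_singleton_of_mem hsA, hA]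
  have hB2 : (B \ {s}).ncard = 2 := by rw [Set.ncard_sdiff_singleton_of_mem hsB, hB]
  have hdis : Disjoint A (B \ {s}) := by
    rw [Set.disjoint_left]
    rintro i h1 ⟨h2, h3⟩
    have : i ∈ A ∩ B := ⟨h1, h2⟩
    rw [hs] at this
    exact h3 this
  obtain ⟨x, hxA, hxB, hall⟩ := H46.exists_sixth hA hB2 hdis
  set O : Set ℝ := {v | T (pt z (v + 1)) ⊆ B \ {s}} ∩ ({v | T (pt z (v + 3)) ⊆ B \ {s}} ∩
    {v | T (pt z (v + 5)) ⊆ B \ {s}}) with hOd
  have hO : IsOpen O := (isOpen_sub C.irr z _ 1).inter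
    ((isOpen_sub C.irr z _ 3).inter (isOpen_sub C.irr z _ 5))
  have hOn : ∀ v ∈ O, ∀ n : ℤ, T (pt z (v + 2 * (n : ℝ) + 1)) ⊆ B \ {s} := by
    rintro v ⟨h1, h3, h5⟩ n
    have e : v + 2 * (n : ℝ) + 1 = v + 1 + 2 * (n : ℝ) := by ring
    rw [e]
    rcases pt_even z (v + 1) n with h | h | h <;> rw [h]
    · exact h1
    · have e3 : v + 1 + 2 = v + 3 := by ring
      rw [e3]; exact h3
    · have e5 : v + 1 + 4 = v + 5 := by ring
      rw [e5]; exact h5
  have heq : ∀ v ∈ O, ∀ n : ℤ, T (pt z (v + 2 * (n : ℝ) + 1)) = B \ {s} := fun v hv n =>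
    Set.eq_of_subset_of_ncard_le (hOn v hv n) (by rw [hB2]; exact H46.two_le C _)
      (Set.toFinite _)
  have huO : u ∉ O := fun h => (h.1 hu).2 rfl
  have hvO : v0 ∈ O := by
    refine ⟨?_, ?_, ?_⟩
    · have := h0 0
      rwa [Int.cast_zero, mul_zero, add_zero] at this
    · have := h0 1
      have e : v0 + 2 * ((1 : ℤ) : ℝ) + 1 = v0 + 3 := by push_cast; ring
      rwa [e] at this
    · have := h0 2
      have e : v0 + 2 * ((2 : ℤ) : ℝ) + 1 = v0 + 5 := by push_cast; ring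
      rwa [e] at this
  obtain ⟨p, τ, hpO, hpu, hpτ⟩ := S5.H46.exists_end hO huO hvO
  have hpδ : |p - u| < δ := lt_of_le_of_lt hpu hv0
  obtain ⟨o, ho, hoe⟩ : ∃ o : ℝ, (o = 1 ∨ o = -1) ∧ o = (if τ then 1 else -1) := by
    cases τ
    · exact ⟨-1, Or.inr rfl, by simp⟩
    · exact ⟨1, Or.inl rfl, by simp⟩
  rw [← hoe] at hpτ
  have hlim : Tendsto (fun t : ℝ => p + o * t) (𝓝[>] (0 : ℝ)) (𝓝 p) := by
    have hc : Continuous fun t : ℝ => p + o * t := by fun_prop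
    have h2 := (hc.tendsto 0).mono_left (nhdsWithin_le_nhds (s := Ioi (0 : ℝ)))
    rwa [mul_zero, add_zero] at h2
  -- colours at the end
  have hBp : ∀ n : ℤ, B \ {s} ⊆ T (pt z (p + 2 * (n : ℝ) + 1)) := by
    intro n i hi
    have hc : Continuous fun v : ℝ => pt z (v + 2 * (n : ℝ) + 1) :=
      (continuous_pt z).comp (by fun_prop)
    refine (C.irr.closed i).mem_of_tendsto ((hc.tendsto p).comp hlim) ?_
    filter_upwards [hpτ] with t ht
    show i ∈ T (pt z (p + o * t + 2 * (n : ℝ) + 1))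
    rw [heq _ ht n]; exact hi
  -- the even palettes contain `s`
  have hsE : ∀ m : ℤ, s ∈ T (pt z (p + 2 * (m : ℝ))) := by
    intro m
    by_contra hsm
    have h1 : T (pt z (p + 2 * (m : ℝ))) ⊆ A \ {s} := fun i hi =>
      ⟨(hV p hpδ m).1 hi, fun h => hsm (by rw [mem_singleton_iff] at h; rwa [← h])⟩
    have h2 : ∀ᶠ v in 𝓝 p, T (pt z (v + 2 * (m : ℝ))) ⊆ A \ {s} :=
      (isOpen_sub C.irr z (A \ {s}) (2 * (m : ℝ))).mem_nhds h1
    have h3 : ∀ᶠ v in 𝓝 p, |v - u| < δ := by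
      have hc : Continuous fun v : ℝ => |v - u| := by fun_prop
      exact (isOpen_lt hc continuous_const).mem_nhds hpδ
    obtain ⟨t, ht1, ht2, ht3⟩ := (hpτ.and (hlim.eventually (h2.and h3))).exists
    refine hG (p + o * t) ht3 m ⟨?_, ?_⟩
    · exact Set.eq_of_subset_of_ncard_le ht2 (by rw [hA2]; exact H46.two_le C _)
        (Set.toFinite _)
    · have := heq _ ht1 (m + 1)
      have e : p + o * t + 2 * ((m + 1 : ℤ) : ℝ) + 1 = p + o * t + 2 * (m : ℝ) + 3 := by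
        push_cast; ring
      rwa [e] at this
  have hA3 : ∀ m : ℤ, (T (pt z (p + 2 * (m : ℝ)))).ncard ≠ 2 → T (pt z (p + 2 * (m : ℝ))) = A := by
    intro m hm
    have h2 := H46.two_le C (p + 2 * (m : ℝ))
    refine Set.eq_of_subset_of_ncard_le (hV p hpδ m).1 ?_ (Set.toFinite _)
    rw [hA]; omega
  -- neighbours of an odd change
  have hc1 : ∀ n : ℤ, s ∈ T (pt z (p + 2 * (n : ℝ) + 1)) →
      T (pt z (p + 2 * (n : ℝ))) = A ∧ T (pt z (p + 2 * ((n + 1 : ℤ) : ℝ))) = A := by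
    intro n hn
    constructor
    · refine hA3 n fun h2 => ?_
      exact Set.disjoint_left.1 (H46.nb_pair C (p + 2 * (n : ℝ)) (Or.inl h2)) (hsE n) hn
    · refine hA3 (n + 1) fun h2 => ?_
      have e : p + 2 * ((n + 1 : ℤ) : ℝ) = p + 2 * (n : ℝ) + 1 + 1 := by push_cast; ring
      rw [e] at h2
      refine Set.disjoint_left.1 (H46.nb_pair C (p + 2 * (n : ℝ) + 1) (Or.inr h2)) hn ?_
      rw [← e]; exact hsE (n + 1)
  -- antipodes of an even change
  have hc2 : ∀ m : ℤ, T (pt z (p + 2 * (m : ℝ))) = A →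
      s ∈ T (pt z (p + 2 * ((m + 1 : ℤ) : ℝ) + 1)) := by
    intro m hm
    by_contra hcon
    have e : p + 2 * ((m + 1 : ℤ) : ℝ) + 1 = p + 2 * (m : ℝ) + 3 := by push_cast; ring
    have h1 : T (pt z (p + 2 * (m : ℝ) + 3)) = B \ {s} := by
      rw [← e]
      refine Set.Subset.antisymm (fun i hi => ⟨(hV p hpδ (m + 1)).2 hi, fun h => hcon ?_⟩)
        (hBp (m + 1))
      rw [mem_singleton_iff] at h; rwa [← h]
    obtain ⟨i, hi1, hi2⟩ := H46.gap3_pt C hact (p + 2 * (m : ℝ))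
      (Or.inl ⟨by rw [hm, hA], by rw [h1, hB2]⟩)
    rw [hm] at hi1
    rw [h1] at hi2
    exact Set.disjoint_left.1 hdis hi1 hi2
  obtain ⟨n, hn⟩ : ∃ n : ℤ, s ∈ T (pt z (p + 2 * (n : ℝ) + 1)) := by
    by_contra hcon
    push Not at hcon
    have key : ∀ n : ℤ, T (pt z (p + 2 * (n : ℝ) + 1)) ⊆ B \ {s} := fun n i hi =>
      ⟨(hV p hpδ n).2 hi, fun h => hcon n (by rw [mem_singleton_iff] at h; rwa [← h])⟩
    refine hpO ⟨?_, ?_, ?_⟩
    · have := key 0
      rwa [Int.cast_zero, mul_zero, add_zero] at this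
    · have := key 1
      have e : p + 2 * ((1 : ℤ) : ℝ) + 1 = p + 3 := by push_cast; ring
      rwa [e] at this
    · have := key 2
      have e : p + 2 * ((2 : ℤ) : ℝ) + 1 = p + 5 := by push_cast; ring
      rwa [e] at this
  have a0 := (hc1 n hn).1
  have a1 := (hc1 n hn).2
  have a2 := (hc1 (n + 1) (hc2 n a0)).2
  -- the three half branches
  obtain ⟨η, hη, hsub⟩ := (mem_nhdsGT_iff_exists_Ioo_subset (a := (0 : ℝ))).1 hpτ
  have hη : (0 : ℝ) < η := hη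
  have hpi : 0 < Real.pi / 3 := by positivity
  have hb : ∀ m : ℤ, T (pt z (p + 2 * (m : ℝ))) = A →
      S5.H450.HB T z (pt z (p + 2 * (m : ℝ) + 3)) o x := by
    intro m hm
    refine S5.H450.half_branch C.irr (dist_pt z _) ho (P := B \ {s}) (η := η * (Real.pi / 3))
      (mul_pos hη hpi) (fun t ht => ?_) ?_ ?_
    · have h1 : z + (pt z (p + 2 * (m : ℝ) + 3) - z) * cis (o * t) =
          pt z (p + o * (t / (Real.pi / 3)) + 2 * ((m + 1 : ℤ) : ℝ) + 1) := by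
        unfold pt
        have e1 : (p + o * (t / (Real.pi / 3)) + 2 * ((m + 1 : ℤ) : ℝ) + 1) * (Real.pi / 3) =
            (p + 2 * (m : ℝ) + 3) * (Real.pi / 3) + o * t := by
          push_cast
          field_simp
          ring
        rw [e1, S5.H767.cis_add]; ring
      rw [h1]
      have h2 : t / (Real.pi / 3) ∈ Ioo (0 : ℝ) η :=
        ⟨div_pos ht.1 hpi, by rw [div_lt_iff₀ hpi]; exact ht.2⟩
      rw [heq _ (hsub h2) (m + 1)]
    · rw [← pt_three, show p + 2 * (m : ℝ) + 3 + 3 = p + 2 * (m : ℝ) + 6 by ring, pt_six, hm, hA]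
    · rw [← pt_three, show p + 2 * (m : ℝ) + 3 + 3 = p + 2 * (m : ℝ) + 6 by ring, pt_six, hm]
      intro i _
      rcases hall i with h3 | h3 | h3
      · exact Or.inr (Or.inl h3)
      · exact Or.inr (Or.inr h3)
      · exact Or.inl h3
  have b0 := hb n a0
  have b1 := hb (n + 1) a1
  have b2 := hb (n + 1 + 1) a2
  have hz : z ∈ XX U := by
    by_contra hz
    obtain ⟨i, hi⟩ := C.irr.ne (pt z p)
    exact C.irr.mx.notMem' (C.irr.off z hz i (C.all i)) (by rw [dist_comm]; exact dist_pt z p)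
      (C.irr.sub _ hi)
  refine S5.H220.three_hb C.irr hz (b := p + 2 * (n : ℝ) + 3) ho b0 ?_ ?_
  · have e : p + 2 * (n : ℝ) + 3 + 2 = p + 2 * ((n + 1 : ℤ) : ℝ) + 3 := by push_cast; ring
    rw [e]; exact b1
  · have e : p + 2 * (n : ℝ) + 3 + 4 = p + 2 * ((n + 1 + 1 : ℤ) : ℝ) + 3 := by push_cast; ring
    rw [e]; exact b2

theorem ev_sub (C : Six6 U T z) {A B : Set (Fin 6)} {u : ℝ}
    (hT : ∀ n : ℤ, T (pt z (u + 2 * (n : ℝ))) = A ∧ T (pt z (u + 2 * (n : ℝ) + 1)) = B) :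
    ∀ᶠ v in 𝓝 u, ∀ n : ℤ, T (pt z (v + 2 * (n : ℝ))) ⊆ A ∧
      T (pt z (v + 2 * (n : ℝ) + 1)) ⊆ B := by
  have h1 : ∀ n : ℤ, ∀ᶠ v in 𝓝 u, T (pt z (v + 2 * (n : ℝ))) ⊆ A := fun n =>
    (isOpen_sub C.irr z A (2 * (n : ℝ))).mem_nhds (hT n).1.subset
  have h2 : ∀ n : ℤ, ∀ᶠ v in 𝓝 u, T (pt z (v + (2 * (n : ℝ) + 1))) ⊆ B := fun n =>
    (isOpen_sub C.irr z B (2 * (n : ℝ) + 1)).mem_nhds (by
      show T (pt z (u + (2 * (n : ℝ) + 1))) ⊆ B
      rw [← add_assoc]; exact (hT n).2.subset)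
  filter_upwards [h1 0, h1 1, h1 2, h2 0, h2 1, h2 2] with v a0 a1 a2 b0 b1 b2
  intro n
  constructor
  · rcases pt_even z v n with h | h | h <;> rw [h]
    · simpa using a0
    · have e : v + 2 * ((1 : ℤ) : ℝ) = v + 2 := by push_cast; ring
      rwa [e] at a1
    · have e : v + 2 * ((2 : ℤ) : ℝ) = v + 4 := by push_cast; ring
      rwa [e] at a2
  · have e : v + 2 * (n : ℝ) + 1 = v + 1 + 2 * (n : ℝ) := by ring
    rw [e]
    rcases pt_even z (v + 1) n with h | h | h <;> rw [h]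
    · simpa using b0
    · have e : v + (2 * ((1 : ℤ) : ℝ) + 1) = v + 1 + 2 := by push_cast; ring
      rwa [e] at b1
    · have e : v + (2 * ((2 : ℤ) : ℝ) + 1) = v + 1 + 4 := by push_cast; ring
      rwa [e] at b2

theorem ev_g33 (C : Six6 U T z) (hact : ∀ i, ∃ q, dist q z = 1 ∧ i ∈ T q) {A B : Set (Fin 6)}
    {s : Fin 6} (hA : A.ncard = 3) (hB : B.ncard = 3) (hs : A ∩ B = {s}) {u : ℝ}
    (hT : ∀ n : ℤ, T (pt z (u + 2 * (n : ℝ))) = A ∧ T (pt z (u + 2 * (n : ℝ) + 1)) = B) :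
    ∀ᶠ v in 𝓝 u, ∀ n : ℤ, ¬ (T (pt z (v + 2 * (n : ℝ))) = A \ {s} ∧
      T (pt z (v + 2 * (n : ℝ) + 3)) = B \ {s}) := by
  have h1 : ∀ n : ℤ, ∀ᶠ v in 𝓝 u, ¬ (T (pt z (v + 2 * (n : ℝ))) = A \ {s} ∧
      T (pt z (v + 2 * (n : ℝ) + 3)) = B \ {s}) := by
    intro n
    have e3 : T (pt z (u + 2 * (n : ℝ) + 3)) = B := by
      have := (hT (n + 1)).2
      have e : u + 2 * ((n + 1 : ℤ) : ℝ) + 1 = u + 2 * (n : ℝ) + 3 := by push_cast; ring
      rwa [e] at this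
    have h2 := S5.H46.g33 C.irr (H46.ncard_six C) hact (u := u + 2 * (n : ℝ)) (s := s)
      (by rw [(hT n).1, e3]; exact hs) (by rw [(hT n).1]; exact hA) (by rw [e3]; exact hB)
    rw [(hT n).1, e3] at h2
    have hc : Tendsto (fun v : ℝ => v + 2 * (n : ℝ)) (𝓝 u) (𝓝 (u + 2 * (n : ℝ))) :=
      (continuous_id.add continuous_const).tendsto u
    exact hc.eventually h2
  filter_upwards [h1 0, h1 1, h1 2] with v a0 a1 a2
  intro n
  have e3 : ∀ t : ℝ, pt z (v + 2 * (n : ℝ)) = pt z t → pt z (v + 2 * (n : ℝ) + 3) = pt z (t + 3) := by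
    intro t ht
    rw [pt_three, ht, pt_three]
  rcases pt_even z v n with h | h | h
  · rw [e3 _ h, h]
    simpa using a0
  · rw [e3 _ h, h]
    have e : v + 2 * ((1 : ℤ) : ℝ) = v + 2 := by push_cast; ring
    rwa [e] at a1
  · rw [e3 _ h, h]
    have e : v + 2 * ((2 : ℤ) : ℝ) = v + 4 := by push_cast; ring
    rwa [e] at a2

/-- **ROT2 / ALT**: integer form. -/
theorem rot2_int (C : Six6 U T z) (hact : ∀ i, ∃ q, dist q z = 1 ∧ i ∈ T q) {A B : Set (Fin 6)}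
    {s : Fin 6} (hA : A.ncard = 3) (hB : B.ncard = 3) (hs : A ∩ B = {s}) {u : ℝ}
    (hT : ∀ n : ℤ, T (pt z (u + 2 * (n : ℝ))) = A ∧ T (pt z (u + 2 * (n : ℝ) + 1)) = B) :
    False := by
  have hsA : s ∈ A := (hs ▸ mem_singleton s : s ∈ A ∩ B).1
  have hsB : s ∈ B := (hs ▸ mem_singleton s : s ∈ A ∩ B).2
  have hA2 : (A \ {s}).ncard = 2 := by rw [Set.ncard_sdiff_singleton_of_mem hsA, hA]
  have hB2 : (B \ {s}).ncard = 2 := by rw [Set.ncard_sdiff_singleton_of_mem hsB, hB]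
  obtain ⟨δ, hδ, hball⟩ := Metric.eventually_nhds_iff.1 ((ev_sub C hT).and
    (ev_g33 C hact hA hB hs hT))
  have hV : ∀ v, |v - u| < δ → ∀ n : ℤ, T (pt z (v + 2 * (n : ℝ))) ⊆ A ∧
      T (pt z (v + 2 * (n : ℝ) + 1)) ⊆ B := fun v hv => (hball (by rw [Real.dist_eq]; exact hv)).1
  have hG : ∀ v, |v - u| < δ → ∀ n : ℤ, ¬ (T (pt z (v + 2 * (n : ℝ))) = A \ {s} ∧
      T (pt z (v + 2 * (n : ℝ) + 3)) = B \ {s}) :=
    fun v hv => (hball (by rw [Real.dist_eq]; exact hv)).2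
  -- a generic time near `u`
  obtain ⟨v, hv, hvg⟩ := Metric.dense_iff.1 C.gn_dense u δ hδ
  have hvg : Gn T z v := hvg
  rw [Metric.mem_ball, Real.dist_eq] at hv
  have hd : ∀ k : Fin 6, s ∈ T (pt z (v + (k.val : ℝ))) → s ∉ T (pt z (v + (k.val : ℝ) + 1)) :=
    fun k h1 h2 => Set.disjoint_left.1 (C.disj (hvg k)) h1 h2
  have d0 := hd 0
  have d1 := hd 1
  have d2 := hd 2
  have d3 := hd 3
  have d4 := hd 4
  have d5 := hd 5
  have v0 : ((0 : Fin 6).val : ℝ) = 0 := by norm_num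
  have v1 : ((1 : Fin 6).val : ℝ) = 1 := by norm_num
  have v2 : ((2 : Fin 6).val : ℝ) = 2 := by norm_num
  have v3 : ((3 : Fin 6).val : ℝ) = 3 := by norm_num
  have v4 : ((4 : Fin 6).val : ℝ) = 4 := by norm_num
  have v5 : ((5 : Fin 6).val : ℝ) = 5 := by norm_num
  rw [v0, add_zero] at d0
  rw [v1, show v + 1 + 1 = v + 2 by ring] at d1
  rw [v2, show v + 2 + 1 = v + 3 by ring] at d2
  rw [v3, show v + 3 + 1 = v + 4 by ring] at d3
  rw [v4, show v + 4 + 1 = v + 5 by ring] at d4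
  rw [v5, show v + 5 + 1 = v + 6 by ring, pt_six] at d5
  have hAe : ∀ n : ℤ, s ∉ T (pt z (v + 2 * (n : ℝ))) → T (pt z (v + 2 * (n : ℝ))) = A \ {s} := by
    intro n hn
    refine Set.eq_of_subset_of_ncard_le (fun i hi => ⟨(hV v hv n).1 hi, fun h => hn ?_⟩)
      (by rw [hA2]; exact H46.two_le C _) (Set.toFinite _)
    rw [mem_singleton_iff] at h; rwa [← h]
  have hBe : ∀ n : ℤ, s ∉ T (pt z (v + 2 * (n : ℝ) + 1)) →
      T (pt z (v + 2 * (n : ℝ) + 1)) = B \ {s} := by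
    intro n hn
    refine Set.eq_of_subset_of_ncard_le (fun i hi => ⟨(hV v hv n).2 hi, fun h => hn ?_⟩)
      (by rw [hB2]; exact H46.two_le C _) (Set.toFinite _)
    rw [mem_singleton_iff] at h; rwa [← h]
  have hg : ∀ n : ℤ, s ∉ T (pt z (v + 2 * (n : ℝ))) → s ∈ T (pt z (v + 2 * (n : ℝ) + 3)) := by
    intro n hn
    by_contra hcon
    refine hG v hv n ⟨hAe n hn, ?_⟩
    have e : v + 2 * (n : ℝ) + 3 = v + 2 * ((n + 1 : ℤ) : ℝ) + 1 := by push_cast; ring
    rw [e] at hcon ⊢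
    exact hBe (n + 1) hcon
  have g0 := hg 0
  have g1 := hg 1
  have g2 := hg 2
  rw [show v + 2 * ((0 : ℤ) : ℝ) = v by push_cast; ring] at g0
  rw [show v + 2 * ((1 : ℤ) : ℝ) = v + 2 by push_cast; ring, show v + 2 + 3 = v + 5 by ring] at g1
  rw [show v + 2 * ((2 : ℤ) : ℝ) = v + 4 by push_cast; ring,
    show v + 4 + 3 = v + 1 + 6 by ring, pt_six] at g2
  have hcase : (s ∉ T (pt z (v + 1)) ∧ s ∉ T (pt z (v + 3)) ∧ s ∉ T (pt z (v + 5))) ∨
      (s ∉ T (pt z v) ∧ s ∉ T (pt z (v + 2)) ∧ s ∉ T (pt z (v + 4))) := by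
    tauto
  rcases hcase with ⟨c1, c3, c5⟩ | ⟨c0, c2, c4⟩
  · refine rot2_core C hact hA hB hs hV hG (by
      have := (hT 0).2
      rw [show u + 2 * ((0 : ℤ) : ℝ) + 1 = u + 1 by push_cast; ring] at this
      rw [this]; exact hsB) hv ?_
    intro n i hi
    refine ⟨(hV v hv n).2 hi, fun h => ?_⟩
    rw [mem_singleton_iff] at h
    rw [h] at hi
    have e : v + 2 * (n : ℝ) + 1 = v + 1 + 2 * (n : ℝ) := by ring
    rw [e] at hi
    rcases pt_even z (v + 1) n with h | h | h <;> rw [h] at hi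
    · exact c1 hi
    · rw [show v + 1 + 2 = v + 3 by ring] at hi; exact c3 hi
    · rw [show v + 1 + 4 = v + 5 by ring] at hi; exact c5 hi
  · refine rot2_core C hact (A := B) (B := A) (u := u + 1) (v0 := v + 1) (δ := δ) hB hA
      (by rw [inter_comm]; exact hs) ?_ ?_ ?_ (by rw [add_sub_add_right_eq_sub]; exact hv) ?_
    · intro v' hv' n
      have hv'' : |(v' - 1) - u| < δ := by
        rw [show v' - 1 - u = v' - (u + 1) by ring]; exact hv'
      constructor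
      · have := (hV _ hv'' n).2
        rwa [show v' - 1 + 2 * (n : ℝ) + 1 = v' + 2 * (n : ℝ) by ring] at this
      · have := (hV _ hv'' (n + 1)).1
        rwa [show v' - 1 + 2 * ((n + 1 : ℤ) : ℝ) = v' + 2 * (n : ℝ) + 1 by push_cast; ring] at this
    · intro v' hv' n hcon
      have hv'' : |(v' - 1) - u| < δ := by
        rw [show v' - 1 - u = v' - (u + 1) by ring]; exact hv'
      refine hG _ hv'' (n + 2) ⟨?_, ?_⟩
      · rw [show v' - 1 + 2 * ((n + 2 : ℤ) : ℝ) = v' + 2 * (n : ℝ) + 3 by push_cast; ring]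
        exact hcon.2
      · rw [show v' - 1 + 2 * ((n + 2 : ℤ) : ℝ) + 3 = v' + 2 * (n : ℝ) + 6 by push_cast; ring,
          pt_six]
        exact hcon.1
    · have := (hT 1).1
      rw [show u + 2 * ((1 : ℤ) : ℝ) = u + 1 + 1 by push_cast; ring] at this
      rw [this]; exact hsA
    · intro n i hi
      have e : v + 1 + 2 * (n : ℝ) + 1 = v + 2 * ((n + 1 : ℤ) : ℝ) := by push_cast; ring
      rw [e] at hi
      refine ⟨(hV v hv (n + 1)).1 hi, fun h => ?_⟩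
      rw [mem_singleton_iff] at h
      rw [h] at hi
      rcases pt_even z v (n + 1) with h | h | h <;> rw [h] at hi
      · exact c0 hi
      · exact c2 hi
      · exact c4 hi

/-- **ROT2 / ALT**: the six palettes at a time `u` are not `A, B, A, B, A, B` with two triples `A`,
`B` which have exactly one common colour. -/
theorem rot2 (C : Six6 U T z) (hact : ∀ i, ∃ q, dist q z = 1 ∧ i ∈ T q) {A B : Set (Fin 6)}
    {s : Fin 6} (hA : A.ncard = 3) (hB : B.ncard = 3) (hs : A ∩ B = {s}) {u : ℝ}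
    (hT : ∀ k : Fin 6, T (pt z (u + (k.val : ℝ))) = if k.val % 2 = 0 then A else B) : False := by
  have t0 := hT 0
  have t1 := hT 1
  have t2 := hT 2
  have t3 := hT 3
  have t4 := hT 4
  have t5 := hT 5
  have v0 : ((0 : Fin 6).val : ℝ) = 0 := by norm_num
  have v1 : ((1 : Fin 6).val : ℝ) = 1 := by norm_num
  have v2 : ((2 : Fin 6).val : ℝ) = 2 := by norm_num
  have v3 : ((3 : Fin 6).val : ℝ) = 3 := by norm_num
  have v4 : ((4 : Fin 6).val : ℝ) = 4 := by norm_num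
  have v5 : ((5 : Fin 6).val : ℝ) = 5 := by norm_num
  rw [v0, add_zero, if_pos (by decide)] at t0
  rw [v1, if_neg (by decide)] at t1
  rw [v2, if_pos (by decide)] at t2
  rw [v3, if_neg (by decide)] at t3
  rw [v4, if_pos (by decide)] at t4
  rw [v5, if_neg (by decide)] at t5
  refine rot2_int C hact hA hB hs (u := u) fun n => ⟨?_, ?_⟩
  · rcases pt_even z u n with h | h | h <;> rw [h]
    exacts [t0, t2, t4]
  · rw [show u + 2 * (n : ℝ) + 1 = u + 1 + 2 * (n : ℝ) by ring]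
    rcases pt_even z (u + 1) n with h | h | h <;> rw [h]
    · exact t1
    · rw [show u + 1 + 2 = u + 3 by ring]; exact t3
    · rw [show u + 1 + 4 = u + 5 by ring]; exact t5

end Vale.Agent.P032.Words6.H343
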