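import Vale.Agent.P032.Words6.H46.Sel
import Vale.Agent.P032.Words6.H343.Rot2

/-!
# P032: the rules ALT and SPAN for the accumulating selections of a six-coloured centre

`lam_alt` : the palettes `Lam H u` are not `A, B, A, B, A, B` with two triples with exactly one common
colour.  `lam_span`, `lam_span2` : the palette `Lam H u k` is spanned by the accumulating words.
-/

open Set Filter Topology Metric

noncomputable section

namespace Vale.Agent.P032.Words6.H343

open Vale.Agent.P032.Six Vale.Agent.P032.S5.H767 Vale.Agent.P032.Words6.H704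
  Vale.Agent.P032.Words6.H46

variable {U : Fin 6 → Set ℂ} {T : ℂ → Set (Fin 6)} {z : ℂ}
  {H : ℝ → (Fin 6 → Set (Fin 6)) → Prop}

/-- **ALT.** -/
theorem lam_alt (C : Six6 U T z) (S : SelH T z H)
    (hact : ∀ i, ∃ q, dist q z = 1 ∧ i ∈ T q ∧ (T q).ncard = 2) {u : ℝ} {A B : Set (Fin 6)}
    {s : Fin 6} (hA : A.ncard = 3) (hB : B.ncard = 3) (hs : A ∩ B = {s})
    (hL : ∀ k : Fin 6, Lam H u k = if k.val % 2 = 0 then A else B) : False := by
  have hact' : ∀ i, ∃ q, dist q z = 1 ∧ i ∈ T q := fun i => by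
    obtain ⟨q, h1, h2, -⟩ := hact i
    exact ⟨q, h1, h2⟩
  refine rot2 C hact' hA hB hs (u := u) fun k => ?_
  rw [← S.lam_eq C ?_]
  · exact hL k
  · rw [hL k]
    split
    · exact hA
    · exact hB

/-- **ALT**, position by position. -/
theorem lam_alt' (C : Six6 U T z) (S : SelH T z H)
    (hact : ∀ i, ∃ q, dist q z = 1 ∧ i ∈ T q ∧ (T q).ncard = 2) {u : ℝ}
    (h0 : (Lam H u 0).ncard = 3) (h1 : (Lam H u 1).ncard = 3)
    (h01 : (Lam H u 0 ∩ Lam H u 1).ncard = 1) (e2 : Lam H u 2 = Lam H u 0)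
    (e3 : Lam H u 3 = Lam H u 1) (e4 : Lam H u 4 = Lam H u 0) (e5 : Lam H u 5 = Lam H u 1) :
    False := by
  obtain ⟨s, hs⟩ := Set.ncard_eq_one.1 h01
  refine lam_alt C S hact h0 h1 hs (u := u) fun k => ?_
  fin_cases k
  · rfl
  · rfl
  · exact e2
  · exact e3
  · exact e4
  · exact e5

/-- **ALT** with the period two. -/
theorem lam_alt_per (C : Six6 U T z) (S : SelH T z H)
    (hact : ∀ i, ∃ q, dist q z = 1 ∧ i ∈ T q ∧ (T q).ncard = 2) {u : ℝ}
    (hp : ∀ k : Fin 6, Lam H u (k + 2) = Lam H u k)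
    (h0 : (Lam H u 0).ncard = 3) (h1 : (Lam H u 1).ncard = 3)
    (h01 : (Lam H u 0 ∩ Lam H u 1).ncard = 1) : False :=
  lam_alt' C S hact h0 h1 h01 (hp 0) (hp 1) ((hp 2).trans (hp 0)) ((hp 3).trans (hp 1))

/-- **SPAN.** -/
theorem lam_span {u : ℝ} {k i : Fin 6} (hi : i ∈ Lam H u k) : ∃ h, Acc H u h ∧ i ∈ h k := hi

/-- **SPAN**: in a triple palette two different letters accumulate, with union the palette. -/
theorem lam_span2 (S : SelH T z H) {u : ℝ} {k : Fin 6} (h3 : (Lam H u k).ncard = 3) :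
    ∃ h h', Acc H u h ∧ Acc H u h' ∧ h k ≠ h' k ∧ h k ∪ h' k = Lam H u k := by
  obtain ⟨h, hh⟩ := S.exists_acc u
  have h2 := S.acc_two hh k
  obtain ⟨i, hi, hin⟩ : ∃ i ∈ Lam H u k, i ∉ h k := by
    by_contra hcon
    push Not at hcon
    have := Set.ncard_le_ncard (show Lam H u k ⊆ h k from hcon) (Set.toFinite _)
    omega
  obtain ⟨h', hh', hi'⟩ := hi
  refine ⟨h, h', hh, hh', fun e => hin (e ▸ hi'), ?_⟩
  refine Set.eq_of_subset_of_ncard_le (union_subset (acc_sub_lam hh k) (acc_sub_lam hh' k)) ?_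
    (Set.toFinite _)
  rw [h3]
  have h4 : (insert i (h k)).ncard = 3 := by rw [Set.ncard_insert_of_notMem hin, h2]
  rw [← h4]
  exact Set.ncard_le_ncard (insert_subset (Or.inr hi') subset_union_left) (Set.toFinite _)

end Vale.Agent.P032.Words6.H343
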